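import Vale.Agent.P181.H303.Spec

/-! P181, row CO: the cost of a product of powers of unit vectors. -/

set_option autoImplicit false

namespace Vale.Agent.P181.H644.CO

open Finset Vale.Agent.P181.H303

theorem lin_add {n : ℕ} (u v : EE n) : lin (u + v) = lin u + lin v := by
  unfold lin
  rw [← Finset.sum_add_distrib]
  exact Finset.sum_congr rfl fun j _ => by rw [PiLp.add_apply, add_smul]

theorem lin_smul {n : ℕ} (c : ℂ) (u : EE n) : lin (c • u) = c • lin u := by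
  unfold lin
  rw [Finset.smul_sum]
  exact Finset.sum_congr rfl fun j _ => by rw [PiLp.smul_apply, smul_eq_mul, mul_smul]

theorem lin_zero {n : ℕ} : lin (0 : EE n) = 0 := by
  have := lin_smul (0 : ℂ) (0 : EE n)
  rwa [zero_smul, zero_smul] at this

theorem exists_unit (n : ℕ) : ∃ u : EE (n + 1), ‖u‖ = 1 :=
  ⟨EuclideanSpace.single 0 (1 : ℂ), by rw [PiLp.norm_single, norm_one]⟩

theorem nonneg_of {n b : ℕ} {T : MvPolynomial (Fin (n + 1)) ℂ →ₗ[ℂ] ℂ} {M : ℝ}
    (hM : ∀ u : EE (n + 1), ‖u‖ = 1 → ‖T (lin u ^ b)‖ ≤ M) : 0 ≤ M := by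
  obtain ⟨u, hu⟩ := exists_unit n
  exact (norm_nonneg _).trans (hM u hu)

theorem bd_any {n b : ℕ} {T : MvPolynomial (Fin (n + 1)) ℂ →ₗ[ℂ] ℂ} {M : ℝ}
    (hM : ∀ u : EE (n + 1), ‖u‖ = 1 → ‖T (lin u ^ b)‖ ≤ M) (w : EE (n + 1)) :
    ‖T (lin w ^ b)‖ ≤ ‖w‖ ^ b * M := by
  by_cases hw : w = 0
  · subst hw
    by_cases hb : b = 0
    · subst hb
      obtain ⟨u, hu⟩ := exists_unit n
      have := hM u hu
      rw [pow_zero] at this ⊢
      rw [pow_zero, one_mul]
      exact this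
    · rw [lin_zero, zero_pow hb, map_zero, norm_zero, norm_zero, zero_pow hb, zero_mul]
  · have h0 : ‖w‖ ≠ 0 := norm_ne_zero_iff.2 hw
    have h1 := hM (((‖w‖⁻¹ : ℝ) : ℂ) • w) (by
      rw [norm_smul, Complex.norm_real, norm_inv, norm_norm]
      exact inv_mul_cancel₀ h0)
    have e : lin w ^ b = ((‖w‖ : ℂ) ^ b) • lin (((‖w‖⁻¹ : ℝ) : ℂ) • w) ^ b := by
      rw [lin_smul, smul_pow, smul_smul, ← mul_pow, Complex.ofReal_inv,
        mul_inv_cancel₀ (by exact_mod_cast h0), one_pow, one_smul]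
    rw [e, map_smul, norm_smul, norm_pow, Complex.norm_real, norm_norm]
    exact mul_le_mul_of_nonneg_left h1 (by positivity)

/-- The mode of the Poisson distribution. -/
theorem pois (n k : ℕ) : n ^ k * n.factorial ≤ n ^ n * k.factorial := by
  rcases le_total n k with h | h
  · have h1 : n.factorial * n ^ (k - n) ≤ k.factorial :=
      Nat.factorial_mul_pow_sub_le_factorial h
    calc n ^ k * n.factorial = n ^ n * (n.factorial * n ^ (k - n)) := by
          rw [← Nat.add_sub_cancel' h, pow_add]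
          rw [Nat.add_sub_cancel_left]
          ring
      _ ≤ n ^ n * k.factorial := Nat.mul_le_mul_left _ h1
  · have h1 : (n - (n - k)).factorial * n.descFactorial (n - k) = n.factorial :=
      Nat.factorial_mul_descFactorial (by omega)
    have h2 : n - (n - k) = k := by omega
    rw [h2] at h1
    calc n ^ k * n.factorial = n ^ k * (k.factorial * n.descFactorial (n - k)) := by rw [h1]
      _ ≤ n ^ k * (k.factorial * n ^ (n - k)) :=
          Nat.mul_le_mul_left _ (Nat.mul_le_mul_left _ (Nat.descFactorial_le_pow _ _))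
      _ = n ^ k * n ^ (n - k) * k.factorial := by ring
      _ = n ^ n * k.factorial := by rw [← pow_add, Nat.add_sub_cancel' h]

theorem mode_nat (m1 m2 k : ℕ) (hk : k ≤ m1 + m2) :
    (m1 + m2).choose k * (m2 ^ k * m1 ^ (m1 + m2 - k)) ≤
      (m1 + m2).choose m2 * (m2 ^ m2 * m1 ^ m1) := by
  have h1 := pois m2 k
  have h2 := pois m1 (m1 + m2 - k)
  have h3 := Nat.choose_mul_factorial_mul_factorial hk
  have h4 := Nat.choose_mul_factorial_mul_factorial (show m2 ≤ m1 + m2 by omega)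
  have h5 : m1 + m2 - m2 = m1 := by omega
  rw [h5] at h4
  have hpos : 0 < (k.factorial * (m1 + m2 - k).factorial) * (m2.factorial * m1.factorial) := by
    positivity
  apply Nat.le_of_mul_le_mul_right _ hpos
  calc (m1 + m2).choose k * (m2 ^ k * m1 ^ (m1 + m2 - k)) *
        ((k.factorial * (m1 + m2 - k).factorial) * (m2.factorial * m1.factorial))
      = ((m1 + m2).choose k * k.factorial * (m1 + m2 - k).factorial) *
        ((m2 ^ k * m2.factorial) * (m1 ^ (m1 + m2 - k) * m1.factorial)) := by ring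
    _ ≤ ((m1 + m2).choose k * k.factorial * (m1 + m2 - k).factorial) *
        ((m2 ^ m2 * k.factorial) * (m1 ^ m1 * (m1 + m2 - k).factorial)) :=
        Nat.mul_le_mul_left _ (Nat.mul_le_mul h1 h2)
    _ = ((m1 + m2).choose m2 * m2.factorial * m1.factorial) *
        ((m2 ^ m2 * k.factorial) * (m1 ^ m1 * (m1 + m2 - k).factorial)) := by rw [h3, h4]
    _ = _ := by ring

theorem mode_nat' (m1 m2 : ℕ) :
    (m1 + m2) ^ (m1 + m2) ≤
      (m1 + m2 + 1) * ((m1 + m2).choose m2 * (m2 ^ m2 * m1 ^ m1)) := by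
  have h : (m1 + m2) ^ (m1 + m2) = ∑ k ∈ range (m1 + m2 + 1),
      m2 ^ k * m1 ^ (m1 + m2 - k) * (m1 + m2).choose k := by
    have h0 := add_pow m2 m1 (m1 + m2)
    simp only [Nat.cast_id] at h0
    rw [add_comm m2 m1] at h0
    exact h0
  rw [h]
  calc _ ≤ ∑ k ∈ range (m1 + m2 + 1), (m1 + m2).choose m2 * (m2 ^ m2 * m1 ^ m1) := by
        apply Finset.sum_le_sum
        intro k hk
        have := mode_nat m1 m2 k (by have := mem_range.1 hk; omega)
        rwa [mul_comm] at this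
    _ = _ := by rw [sum_const, card_range, smul_eq_mul]

/-- The mode of the binomial distribution. -/
theorem mode (m1 m2 : ℕ) : (1 : ℝ) ≤ ((m1 + m2 : ℕ) + 1 : ℝ) * ((m1 + m2).choose m2 *
    (((m2 : ℝ) / (m1 + m2 : ℕ)) ^ m2 * ((m1 : ℝ) / (m1 + m2 : ℕ)) ^ m1)) := by
  rcases Nat.eq_zero_or_pos (m1 + m2) with h0 | h0
  · have h1 : m1 = 0 := by omega
    have h2 : m2 = 0 := by omega
    subst h1 h2
    simp
  · have h1 : (((m1 + m2) ^ (m1 + m2) : ℕ) : ℝ) ≤
        (((m1 + m2 + 1) * ((m1 + m2).choose m2 * (m2 ^ m2 * m1 ^ m1)) : ℕ) : ℝ) := by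
      exact_mod_cast mode_nat' m1 m2
    have hp : (0 : ℝ) < ((m1 + m2 : ℕ) : ℝ) := by exact_mod_cast h0
    rw [div_pow, div_pow, div_mul_div_comm, ← pow_add, add_comm m2 m1, ← mul_div_assoc,
      ← mul_div_assoc, le_div_iff₀ (by positivity), one_mul]
    push_cast at h1 ⊢
    exact h1

/-- Sums over roots of unity. -/
theorem sum_root {N : ℕ} {ζ : ℂ} (hζ : IsPrimitiveRoot ζ N) {e : ℕ}
    (he : ¬ N ∣ e) : ∑ j ∈ range N, ζ ^ (j * e) = 0 := by
  have h1 : ζ ^ e ≠ 1 := fun h => he ((hζ.pow_eq_one_iff_dvd e).1 h)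
  have h2 : (ζ ^ e) ^ N = 1 := by rw [← pow_mul, mul_comm, pow_mul, hζ.pow_eq_one, one_pow]
  have h3 : ∑ j ∈ range N, (ζ ^ e) ^ j = 0 := by
    rw [geom_sum_eq h1, h2, sub_self, zero_div]
  rw [← h3]
  exact sum_congr rfl fun j _ => by rw [← pow_mul, mul_comm]

/-- Two vectors. -/
theorem two_vec {n : ℕ} (T : MvPolynomial (Fin (n + 1)) ℂ →ₗ[ℂ] ℂ) (M : ℝ) (m1 m2 : ℕ)
    (hM : ∀ u : EE (n + 1), ‖u‖ = 1 → ‖T (lin u ^ (m1 + m2))‖ ≤ M) (u v : EE (n + 1)) (ρ : ℝ)
    (h : ∀ z : ℂ, ‖z‖ = 1 → ‖((m1 : ℂ) / (m1 + m2 : ℕ)) • u +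
      (((m2 : ℂ) / (m1 + m2 : ℕ)) * z) • v‖ ≤ ρ) :
    ‖T (lin u ^ m1 * lin v ^ m2)‖ ≤ ((m1 + m2 : ℕ) + 1 : ℝ) * ρ ^ (m1 + m2) * M := by
  have hM0 : 0 ≤ M := nonneg_of hM
  set m := m1 + m2 with hm
  set α : ℂ := (m1 : ℂ) / (m : ℕ) with hα
  set β : ℂ := (m2 : ℂ) / (m : ℕ) with hβ
  set ζ : ℂ := Complex.exp (2 * Real.pi * Complex.I / ((m + 1 : ℕ) : ℂ)) with hζdef
  have hζ : IsPrimitiveRoot ζ (m + 1) := Complex.isPrimitiveRoot_exp (m + 1) (by omega)
  have hζ1 : ‖ζ‖ = 1 := hζ.norm'_eq_one (by omega)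
  let t : ℕ → ℂ := fun k => T (lin v ^ k * lin u ^ (m - k))
  have hexp : ∀ j : ℕ, T (lin (α • u + (β * ζ ^ j) • v) ^ m) =
      ∑ k ∈ range (m + 1), ((m.choose k : ℂ) * (β ^ k * α ^ (m - k)) * t k) * ζ ^ (j * k) := by
    intro j
    rw [lin_add, lin_smul, lin_smul, add_comm (α • lin u), add_pow, map_sum]
    apply sum_congr rfl
    intro k _
    have e : ((β * ζ ^ j) • lin v) ^ k * (α • lin u) ^ (m - k) * (m.choose k : MvPolynomial _ ℂ) =
        ((m.choose k : ℂ) * (β ^ k * α ^ (m - k)) * ζ ^ (j * k)) •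
          (lin v ^ k * lin u ^ (m - k)) := by
      rw [smul_pow, smul_pow, smul_mul_smul_comm, mul_comm _ (m.choose k : MvPolynomial _ ℂ),
        ← nsmul_eq_mul, ← Nat.cast_smul_eq_nsmul ℂ, smul_smul, mul_pow, ← pow_mul]
      congr 1
      ring
    rw [e, map_smul, smul_eq_mul]
    ring
  have hsum : ∑ j ∈ range (m + 1), ζ ^ (j * (m + 1 - m2)) *
      T (lin (α • u + (β * ζ ^ j) • v) ^ m) =
      ((m + 1 : ℕ) : ℂ) * ((m.choose m2 : ℂ) * (β ^ m2 * α ^ (m - m2)) * t m2) := by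
    have e1 : ∀ j ∈ range (m + 1), ζ ^ (j * (m + 1 - m2)) *
        T (lin (α • u + (β * ζ ^ j) • v) ^ m) = ∑ k ∈ range (m + 1),
        ((m.choose k : ℂ) * (β ^ k * α ^ (m - k)) * t k) * ζ ^ (j * (m + 1 - m2 + k)) := by
      intro j _
      rw [hexp j, mul_sum]
      apply sum_congr rfl
      intro k _
      rw [mul_add, pow_add]
      ring
    rw [sum_congr rfl e1, sum_comm]
    rw [sum_eq_single m2]
    · rw [← mul_sum]
      have e2 : ∀ j ∈ range (m + 1), ζ ^ (j * (m + 1 - m2 + m2)) = 1 := by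
        intro j _
        have : m + 1 - m2 + m2 = m + 1 := by omega
        rw [this, mul_comm, pow_mul, hζ.pow_eq_one, one_pow]
      rw [sum_congr rfl e2, sum_const, card_range, nsmul_eq_mul, mul_one, mul_comm]
    · intro k hk hne
      rw [← mul_sum, sum_root hζ, mul_zero]
      have hk' := mem_range.1 hk
      intro hd
      obtain ⟨c, hc⟩ := hd
      have h1 : c = 1 := by
        have h2 : c ≠ 0 := by
          rintro rfl
          omega
        have h3 : c < 2 := by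
          by_contra hcon
          have h4 : 2 ≤ c := by omega
          have h5 : (m + 1) * 2 ≤ (m + 1) * c := Nat.mul_le_mul_left _ h4
          omega
        omega
      subst h1
      omega
    · intro hcon
      exfalso
      exact hcon (mem_range.2 (by omega))
  have hnorm : ‖∑ j ∈ range (m + 1), ζ ^ (j * (m + 1 - m2)) *
      T (lin (α • u + (β * ζ ^ j) • v) ^ m)‖ ≤ ((m + 1 : ℕ) : ℝ) * (ρ ^ m * M) := by
    refine (norm_sum_le _ _).trans ?_
    calc _ ≤ ∑ j ∈ range (m + 1), ρ ^ m * M := by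
          apply sum_le_sum
          intro j _
          rw [norm_mul, norm_pow, hζ1, one_pow, one_mul]
          refine (bd_any hM _).trans (mul_le_mul_of_nonneg_right ?_ hM0)
          exact pow_le_pow_left₀ (norm_nonneg _) (h (ζ ^ j) (by rw [norm_pow, hζ1, one_pow])) _
      _ = _ := by rw [sum_const, card_range, nsmul_eq_mul]
  rw [hsum, norm_mul, Complex.norm_natCast] at hnorm
  have h1 : (0 : ℝ) < ((m + 1 : ℕ) : ℝ) := by positivity
  have h2 := le_of_mul_le_mul_left hnorm h1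
  have e3 : m - m2 = m1 := by omega
  have ht : t m2 = T (lin u ^ m1 * lin v ^ m2) := by
    change T (lin v ^ m2 * lin u ^ (m - m2)) = _
    rw [e3, mul_comm]
  rw [norm_mul, ht, e3] at h2
  have h3 : ‖(m.choose m2 : ℂ) * (β ^ m2 * α ^ m1)‖ =
      (m.choose m2 : ℝ) * (((m2 : ℝ) / (m : ℕ)) ^ m2 * ((m1 : ℝ) / (m : ℕ)) ^ m1) := by
    rw [norm_mul, norm_mul, norm_pow, norm_pow, hα, hβ, norm_div, norm_div, Complex.norm_natCast,
      Complex.norm_natCast, Complex.norm_natCast, Complex.norm_natCast]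
  rw [h3] at h2
  have h4 := mode m1 m2
  rw [← hm] at h4
  calc ‖T (lin u ^ m1 * lin v ^ m2)‖ ≤ (((m : ℕ) + 1 : ℝ) * ((m.choose m2 : ℝ) *
        (((m2 : ℝ) / (m : ℕ)) ^ m2 * ((m1 : ℝ) / (m : ℕ)) ^ m1))) *
          ‖T (lin u ^ m1 * lin v ^ m2)‖ := le_mul_of_one_le_left (norm_nonneg _) h4
    _ = ((m : ℕ) + 1 : ℝ) * ((m.choose m2 : ℝ) *
        (((m2 : ℝ) / (m : ℕ)) ^ m2 * ((m1 : ℝ) / (m : ℕ)) ^ m1) *
          ‖T (lin u ^ m1 * lin v ^ m2)‖) := by ring
    _ ≤ ((m : ℕ) + 1 : ℝ) * (ρ ^ m * M) := mul_le_mul_of_nonneg_left h2 (by positivity)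
    _ = _ := by ring

theorem norm_comb {n : ℕ} {u v : EE (n + 1)} (hu : ‖u‖ = 1) (hv : ‖v‖ = 1) {p q : ℝ}
    (hp : 0 ≤ p) (hq : 0 ≤ q) {z : ℂ} (hz : ‖z‖ = 1) :
    ‖(p : ℂ) • u + ((q : ℂ) * z) • v‖ ^ 2 ≤ p ^ 2 + q ^ 2 + 2 * (p * q * ‖inner ℂ u v‖) := by
  have h1 := norm_add_sq (𝕜 := ℂ) ((p : ℂ) • u) (((q : ℂ) * z) • v)
  have h2 : ‖inner ℂ ((p : ℂ) • u) (((q : ℂ) * z) • v)‖ = p * q * ‖inner ℂ u v‖ := by
    rw [inner_smul_left, inner_smul_right, norm_mul, norm_mul, RCLike.norm_conj, norm_mul, hz,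
      Complex.norm_real, Complex.norm_real, Real.norm_of_nonneg hp, Real.norm_of_nonneg hq]
    ring
  have h3 : RCLike.re (inner ℂ ((p : ℂ) • u) (((q : ℂ) * z) • v)) ≤ p * q * ‖inner ℂ u v‖ := by
    rw [← h2]
    exact RCLike.re_le_norm _
  have h4 : ‖(p : ℂ) • u‖ = p := by
    rw [norm_smul, hu, Complex.norm_real, Real.norm_of_nonneg hp, mul_one]
  have h5 : ‖((q : ℂ) * z) • v‖ = q := by
    rw [norm_smul, hv, norm_mul, hz, Complex.norm_real, Real.norm_of_nonneg hq, mul_one, mul_one]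
  rw [h1, h4, h5]
  linarith

/-- Cost of two vectors. -/
theorem two_any {n m1 m2 : ℕ} {u v : EE (n + 1)} (hu : ‖u‖ = 1) (hv : ‖v‖ = 1) :
    Bd (m1 + m2) (lin u ^ m1 * lin v ^ m2) ((m1 + m2 : ℕ) + 1) := by
  intro T M hM
  have h := two_vec T M m1 m2 hM u v 1 (fun z hz => by
    refine (norm_add_le _ _).trans ?_
    rw [norm_smul, norm_smul, hu, hv, norm_mul, hz, mul_one, mul_one, mul_one, norm_div, norm_div,
      Complex.norm_natCast, Complex.norm_natCast, Complex.norm_natCast, ← add_div]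
    push_cast
    exact div_self_le_one _)
  rwa [one_pow, mul_one] at h

/-- Cost of two separated vectors. -/
theorem two_sep {n m1 m2 : ℕ} {u v : EE (n + 1)} (hu : ‖u‖ = 1) (hv : ‖v‖ = 1) {t δ : ℝ}
    (ht : 0 ≤ t) (h1 : t ≤ m1) (h2 : t ≤ m2) (hδ : 0 ≤ δ)
    (huv : ‖inner ℂ u v‖ ^ 2 ≤ 1 - δ) :
    Bd (m1 + m2) (lin u ^ m1 * lin v ^ m2)
      (((m1 + m2 : ℕ) + 1) * Real.exp (-(t * δ / 4))) := by
  intro T M hM
  have hM0 : 0 ≤ M := nonneg_of hM
  rcases Nat.eq_zero_or_pos (m1 + m2) with h0 | h0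
  · have h3 : m1 = 0 := by omega
    have h4 : (m1 : ℝ) = 0 := by exact_mod_cast h3
    have h5 : t = 0 := by linarith
    have h6 := two_any (m1 := m1) (m2 := m2) hu hv T M hM
    rw [h5, zero_mul, zero_div, neg_zero, Real.exp_zero, mul_one]
    exact h6
  have hm : (0 : ℝ) < ((m1 + m2 : ℕ) : ℝ) := by exact_mod_cast h0
  set p : ℝ := (m1 : ℝ) / (m1 + m2 : ℕ) with hp
  set q : ℝ := (m2 : ℝ) / (m1 + m2 : ℕ) with hq
  have hp0 : 0 ≤ p := by positivity
  have hq0 : 0 ≤ q := by positivity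
  have hpq : p + q = 1 := by
    rw [hp, hq, ← add_div, div_eq_one_iff_eq hm.ne']
    push_cast
    ring
  have hpq2 : t / 2 ≤ ((m1 + m2 : ℕ) : ℝ) * (p * q) := by
    have e : ((m1 + m2 : ℕ) : ℝ) * (p * q) = (m1 : ℝ) * m2 / (m1 + m2 : ℕ) := by
      rw [hp, hq]
      field_simp
    rw [e, le_div_iff₀ hm]
    push_cast
    have h3 : t * m1 ≤ m2 * m1 := mul_le_mul_of_nonneg_right h2 (by positivity)
    have h4 : t * m2 ≤ m1 * m2 := mul_le_mul_of_nonneg_right h1 (by positivity)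
    linarith
  have hc : ‖inner ℂ u v‖ ≤ 1 - δ / 2 := by
    nlinarith [sq_nonneg (‖inner ℂ u v‖ - 1)]
  have h := two_vec T M m1 m2 hM u v (Real.exp (-(p * q * δ / 2))) (fun z hz => by
    have h3 := norm_comb hu hv hp0 hq0 hz
    have h4 : ((m1 : ℂ) / (m1 + m2 : ℕ)) = ((p : ℝ) : ℂ) := by
      rw [hp]; push_cast; rfl
    have h5 : ((m2 : ℂ) / (m1 + m2 : ℕ)) = ((q : ℝ) : ℂ) := by
      rw [hq]; push_cast; rfl
    rw [h4, h5]
    apply le_of_sq_le_sq _ (Real.exp_nonneg _)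
    rw [← Real.exp_nat_mul]
    have h6 : p ^ 2 + q ^ 2 + 2 * (p * q * ‖inner ℂ u v‖) ≤ 1 - p * q * δ := by
      have h7 : p * q * ‖inner ℂ u v‖ ≤ p * q * (1 - δ / 2) :=
        mul_le_mul_of_nonneg_left hc (by positivity)
      have h8 : (p + q) ^ 2 = 1 := by rw [hpq, one_pow]
      nlinarith
    have h7 := Real.add_one_le_exp (-(p * q * δ))
    have h8 : ((2 : ℕ) : ℝ) * -(p * q * δ / 2) = -(p * q * δ) := by push_cast; ring
    rw [h8]
    linarith)
  refine h.trans (mul_le_mul_of_nonneg_right ?_ hM0)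
  refine mul_le_mul_of_nonneg_left ?_ (by positivity)
  rw [← Real.exp_nat_mul]
  apply Real.exp_le_exp.2
  have h3 : t / 2 * (δ / 2) ≤ ((m1 + m2 : ℕ) : ℝ) * (p * q) * (δ / 2) :=
    mul_le_mul_of_nonneg_right hpq2 (by positivity)
  linarith

theorem Bd_mono {n b : ℕ} {h : MvPolynomial (Fin (n + 1)) ℂ} {c c' : ℝ} (hh : Bd b h c)
    (hc : c ≤ c') : Bd b h c' := fun T M hM =>
  (hh T M hM).trans (mul_le_mul_of_nonneg_right hc (nonneg_of hM))

/-- Merging one more vector. -/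
theorem Bd_mul {n b k : ℕ} {h : MvPolynomial (Fin (n + 1)) ℂ} {c : ℝ} (hh : Bd b h c)
    {v : EE (n + 1)} (hv : ‖v‖ = 1) :
    Bd (b + k) (h * lin v ^ k) (c * ((b + k : ℕ) + 1)) := by
  intro T M hM
  have h1 := hh (T.comp (LinearMap.mulRight ℂ (lin v ^ k))) (((b + k : ℕ) + 1 : ℝ) * M)
    (fun u hu => by
      have := two_any (m1 := b) (m2 := k) hu hv T M hM
      exact this)
  rw [mul_assoc]
  exact h1

theorem Bd_prod {n : ℕ} {ι : Type} [DecidableEq ι] {x : ι → EE (n + 1)} {m : ι → ℕ}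
    (hx : ∀ i, ‖x i‖ = 1) {b0 : ℕ} {h : MvPolynomial (Fin (n + 1)) ℂ} {c : ℝ} (hc : 0 ≤ c)
    (hh : Bd b0 h c) (s : Finset ι) (B : ℕ) (hB : b0 + ∑ i ∈ s, m i ≤ B) :
    Bd (b0 + ∑ i ∈ s, m i) (h * ∏ i ∈ s, lin (x i) ^ m i) (c * ((B : ℝ) + 1) ^ s.card) := by
  induction s using Finset.induction_on with
  | empty =>
    rw [sum_empty, prod_empty, card_empty, pow_zero, mul_one, mul_one, add_zero]
    exact hh
  | insert i s hi ih =>
    rw [sum_insert hi] at hB ⊢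
    rw [prod_insert hi, card_insert_of_notMem hi]
    have h1 := Bd_mul (k := m i) (ih (by omega)) (hx i)
    have e1 : b0 + ∑ i ∈ s, m i + m i = b0 + (m i + ∑ i ∈ s, m i) := by ring
    have e2 : (h * ∏ i ∈ s, lin (x i) ^ m i) * lin (x i) ^ m i =
        h * (lin (x i) ^ m i * ∏ i ∈ s, lin (x i) ^ m i) := by ring
    rw [e1] at h1
    rw [← e2]
    refine Bd_mono h1 ?_
    rw [pow_succ, ← mul_assoc]
    refine mul_le_mul_of_nonneg_left ?_ (by positivity)
    have : ((b0 + (m i + ∑ i ∈ s, m i) : ℕ) : ℝ) ≤ B := by exact_mod_cast hB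
    linarith

/-- **Row CO.** -/
theorem rowCO : RowCO := by
  intro n b ι _ x m hx hb
  classical
  constructor
  · have h1 : Bd 0 (1 : MvPolynomial (Fin (n + 1)) ℂ) 1 := by
      intro T M hM
      obtain ⟨u, hu⟩ := exists_unit n
      have := hM u hu
      rwa [pow_zero, ← one_mul M] at this
    have h2 := Bd_prod (m := m) hx zero_le_one h1 univ b (by rw [zero_add, hb])
    rw [zero_add, hb, one_mul, one_mul, card_univ] at h2
    exact h2
  · intro i j t δ hij ht h1 h2 hδ hin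
    have h3 := two_sep (m1 := m i) (m2 := m j) (hx i) (hx j) ht h1 h2 hδ hin
    have hji : j ∈ univ.erase i := mem_erase.2 ⟨hij.symm, mem_univ j⟩
    have es : m i + m j + ∑ k ∈ (univ.erase i).erase j, m k = b := by
      rw [add_assoc, add_sum_erase _ _ hji, add_sum_erase _ _ (mem_univ i), hb]
    have ep : lin (x i) ^ m i * lin (x j) ^ m j * ∏ k ∈ (univ.erase i).erase j, lin (x k) ^ m k =
        ∏ k, lin (x k) ^ m k := by
      rw [mul_assoc, mul_prod_erase _ (fun k => lin (x k) ^ m k) hji,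
        mul_prod_erase _ (fun k => lin (x k) ^ m k) (mem_univ i)]
    have h4 := Bd_prod (m := m) hx (by positivity) h3 ((univ.erase i).erase j) b (by rw [es])
    rw [es, ep] at h4
    refine Bd_mono h4 ?_
    have hb1 : (1 : ℝ) ≤ (b : ℝ) + 1 := by
      have : (0 : ℝ) ≤ b := by positivity
      linarith
    have hcard : ((univ.erase i).erase j).card + 2 = Fintype.card ι := by
      have e1 := card_erase_add_one hji
      have e2 := card_erase_add_one (mem_univ i)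
      rw [card_univ] at e2
      omega
    rw [← hcard, pow_add]
    have h5 : ((m i + m j : ℕ) : ℝ) + 1 ≤ ((b : ℝ) + 1) ^ 2 := by
      have h6 : m i + m j ≤ b := by rw [← es]; omega
      have h7 : ((m i + m j : ℕ) : ℝ) ≤ b := by exact_mod_cast h6
      nlinarith
    calc ((m i + m j : ℕ) + 1 : ℝ) * Real.exp (-(t * δ / 4)) *
          ((b : ℝ) + 1) ^ ((univ.erase i).erase j).card
        ≤ ((b : ℝ) + 1) ^ 2 * Real.exp (-(t * δ / 4)) *
          ((b : ℝ) + 1) ^ ((univ.erase i).erase j).card := by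
          refine mul_le_mul_of_nonneg_right ?_ (by positivity)
          exact mul_le_mul_of_nonneg_right h5 (Real.exp_nonneg _)
      _ = _ := by ring

end Vale.Agent.P181.H644.CO
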