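import Mathlib.Tactic
import Mathlib.Analysis.SpecialFunctions.Log.Basic
import Mathlib.Analysis.Complex.ExponentialBounds

/-!
P181, power map theorem for `λ_1 ≤ (s + 1) b - M`: row N (constants).
-/

set_option autoImplicit false

namespace Vale.Agent.P181.TS

open Finset

/-- `a = k g + (k + 1) g'` with `g, g'` close to `a / (2 k + 1)`. -/
lemma sizesK (k a : ℕ) (ha : (2 * k + 1) ^ 2 ≤ a) : ∃ g g' w : ℕ,
    a = k * g + (k + 1) * g' ∧ 1 ≤ w ∧ w ≤ g ∧ w ≤ g' ∧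
      ∀ q : ℕ, q * a ≤ q * (2 * k + 1) * w + q * (2 * k + 1) ^ 2 := by
  obtain ⟨K, hK⟩ : ∃ K, K = 2 * k + 1 := ⟨_, rfl⟩
  rw [← hK] at ha
  obtain ⟨m, hm⟩ : ∃ m, m = a / K := ⟨_, rfl⟩
  obtain ⟨ρ, hρ⟩ : ∃ ρ, ρ = a % K := ⟨_, rfl⟩
  have h1 : a = K * m + ρ := by rw [hm, hρ]; exact (Nat.div_add_mod a K).symm
  have h2 : ρ < K := by rw [hρ]; exact Nat.mod_lt _ (by omega)
  have h3 : K ≤ m := by
    rw [hm, Nat.le_div_iff_mul_le (by omega)]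
    calc K * K = K ^ 2 := by ring
      _ ≤ a := ha
  have h4 : ρ ≤ m := by omega
  refine ⟨m - ρ, m + ρ, m - ρ, ?_, by omega, le_rfl, by omega, ?_⟩
  · zify [h4]
    have h5 : (a : ℤ) = K * m + ρ := by exact_mod_cast h1
    rw [h5, hK]
    push_cast
    ring
  · intro q
    have h6 : a ≤ K * (m - ρ) + K ^ 2 := by
      zify [h4]
      have h5 : (a : ℤ) = K * m + ρ := by exact_mod_cast h1
      have h7 : ((ρ : ℤ) + 1) * (K + 1) ≤ K * (K + 1) := by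
        have h8 : (ρ : ℤ) + 1 ≤ K := by exact_mod_cast h2
        have h9 : (0 : ℤ) ≤ K + 1 := by positivity
        exact mul_le_mul_of_nonneg_right h8 h9
      nlinarith
    rw [← hK]
    calc q * a ≤ q * (K * (m - ρ) + K ^ 2) := Nat.mul_le_mul_left q h6
      _ = _ := by ring

/-- The numerical condition of the labelling. -/
lemma numS {a Q s e A L : ℕ} {θ : ℕ → ℕ} (ha : 1 ≤ a) (hQ : 1 ≤ Q)
    (hA : 2 * (e : ℝ) + 4 * (Q : ℝ) ^ 2 * Real.log (2 * ((s : ℝ) + 1) * a * Q) ≤ A)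
    (hL : L = 8 * Q ^ 2) (hθ : ∀ r, 2 * A ≤ θ r) :
    (a : ℝ) ^ 2 * (Q : ℝ) ^ 2 * (1 - 1 / (2 * (Q : ℝ) ^ 2)) ^ (A - 2 * e) +
        ∑ r ∈ Finset.Icc 2 s, (a : ℝ) ^ 2 * (Q : ℝ) ^ 2 *
          (2 ^ (θ r) * (1 - 1 / (2 * (Q : ℝ) ^ 2)) ^ (L * θ r - 2 * e)) < 1 := by
  have haR : (1 : ℝ) ≤ a := by exact_mod_cast ha
  have ha0 : (0 : ℝ) < a := by linarith
  have hQR : (1 : ℝ) ≤ Q := by exact_mod_cast hQ
  have hQ0 : (0 : ℝ) < Q := by linarith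
  have hsR : (0 : ℝ) ≤ (s : ℝ) := Nat.cast_nonneg _
  have he0 : (0 : ℝ) ≤ (e : ℝ) := Nat.cast_nonneg _
  obtain ⟨T, hT⟩ : ∃ T : ℝ, T = Real.log (2 * ((s : ℝ) + 1) * a * Q) := ⟨_, rfl⟩
  rw [← hT] at hA
  have hexpT : Real.exp T = 2 * ((s : ℝ) + 1) * a * Q := by
    rw [hT]
    exact Real.exp_log (by positivity)
  have hT0 : 0 ≤ T := by
    rw [hT]
    apply Real.log_nonneg
    have h5 : (1 : ℝ) ≤ 2 * ((s : ℝ) + 1) := by linarith
    have h6 : (1 : ℝ) ≤ 2 * ((s : ℝ) + 1) * a := one_le_mul_of_one_le_of_one_le h5 haR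
    exact one_le_mul_of_one_le_of_one_le h6 hQR
  have hQ2 : (1 : ℝ) ≤ (Q : ℝ) ^ 2 := one_le_pow₀ hQR
  have hQT : T ≤ (Q : ℝ) ^ 2 * T := by nlinarith
  have heA : 2 * e ≤ A := by
    have : ((2 * e : ℕ) : ℝ) ≤ (A : ℝ) := by
      push_cast
      nlinarith
    exact_mod_cast this
  obtain ⟨x, hx⟩ : ∃ x : ℝ, x = 1 - 1 / (2 * (Q : ℝ) ^ 2) := ⟨_, rfl⟩
  have hx0 : 0 ≤ x := by
    rw [hx, sub_nonneg, div_le_one (by positivity)]
    linarith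
  have hxe : ∀ m : ℕ, x ^ m ≤ Real.exp (-(m / (2 * (Q : ℝ) ^ 2))) := by
    intro m
    have h1 : x ≤ Real.exp (-(1 / (2 * (Q : ℝ) ^ 2))) := by
      have h2 := Real.add_one_le_exp (-(1 / (2 * (Q : ℝ) ^ 2)))
      rw [hx]
      linarith
    have h2 := pow_le_pow_left₀ hx0 h1 m
    rw [← Real.exp_nat_mul] at h2
    refine h2.trans (le_of_eq ?_)
    congr 1
    ring
  have hexp2 : (a : ℝ) ^ 2 * (Q : ℝ) ^ 2 * Real.exp (-(2 * T)) = 1 / (4 * ((s : ℝ) + 1) ^ 2) := by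
    have h1 : Real.exp (2 * T) = (2 * ((s : ℝ) + 1) * a * Q) ^ 2 := by
      rw [← hexpT, ← Real.exp_nat_mul]
      norm_num
    rw [Real.exp_neg, h1]
    have h2 : ((s : ℝ) + 1) ≠ 0 := by positivity
    field_simp
    ring
  rw [← hx]
  -- the term of the first family
  have hterm0 : (a : ℝ) ^ 2 * (Q : ℝ) ^ 2 * x ^ (A - 2 * e) ≤ 1 / (4 * ((s : ℝ) + 1) ^ 2) := by
    have h6 : x ^ (A - 2 * e) ≤ Real.exp (-(2 * T)) := by
      refine (hxe _).trans (Real.exp_le_exp.2 ?_)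
      rw [neg_le_neg_iff, le_div_iff₀ (by positivity)]
      have h7 : ((A - 2 * e : ℕ) : ℝ) = (A : ℝ) - 2 * e := by
        rw [Nat.cast_sub heA]
        push_cast
        ring
      rw [h7]
      linarith
    rw [← hexp2]
    exact mul_le_mul_of_nonneg_left h6 (by positivity)
  have htermr : ∀ r, (a : ℝ) ^ 2 * (Q : ℝ) ^ 2 *
      (2 ^ (θ r) * x ^ (L * θ r - 2 * e)) ≤ 1 / (4 * ((s : ℝ) + 1) ^ 2) := by
    intro r
    obtain ⟨t, ht⟩ : ∃ t, t = θ r := ⟨_, rfl⟩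
    have hA2 := hθ r
    rw [← ht] at hA2 ⊢
    have hθr : 2 * (A : ℝ) ≤ (t : ℝ) := by exact_mod_cast hA2
    have hθe : 2 * e ≤ t := by omega
    have hθeR : 2 * (e : ℝ) ≤ (t : ℝ) := by exact_mod_cast hθe
    have ht0 : (0 : ℝ) ≤ (t : ℝ) := Nat.cast_nonneg _
    have h6 : (2 : ℝ) ^ t * x ^ (L * t - 2 * e) ≤ Real.exp (-(2 * T)) := by
      have h7 : (2 : ℝ) ^ t = Real.exp (t * Real.log 2) := by
        rw [Real.exp_nat_mul, Real.exp_log (by norm_num)]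
      rw [h7]
      refine (mul_le_mul_of_nonneg_left (hxe _) (Real.exp_pos _).le).trans ?_
      rw [← Real.exp_add]
      apply Real.exp_le_exp.2
      have h8 : 3 * (t : ℝ) ≤ ((L * t - 2 * e : ℕ) : ℝ) / (2 * (Q : ℝ) ^ 2) := by
        rw [le_div_iff₀ (by positivity)]
        have h9 : 2 * e ≤ L * t := by
          refine hθe.trans (Nat.le_mul_of_pos_left _ ?_)
          rw [hL]
          positivity
        rw [Nat.cast_sub h9, hL]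
        push_cast
        have h11 : (t : ℝ) ≤ (Q : ℝ) ^ 2 * t := by nlinarith
        nlinarith
      have h9 : Real.log 2 < 0.6931471808 := Real.log_two_lt_d9
      have h11 : (t : ℝ) * Real.log 2 ≤ t * 1 :=
        mul_le_mul_of_nonneg_left (by linarith) ht0
      linarith
    rw [← hexp2]
    exact mul_le_mul_of_nonneg_left h6 (by positivity)
  have h6 : ∑ r ∈ Finset.Icc 2 s, (a : ℝ) ^ 2 * (Q : ℝ) ^ 2 *
      (2 ^ (θ r) * x ^ (L * θ r - 2 * e)) ≤ (s : ℝ) * (1 / (4 * ((s : ℝ) + 1) ^ 2)) := by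
    refine (Finset.sum_le_card_nsmul _ _ _ (fun r _ => htermr r)).trans ?_
    rw [nsmul_eq_mul, Nat.card_Icc]
    apply mul_le_mul_of_nonneg_right _ (by positivity)
    have : s + 1 - 2 ≤ s := by omega
    exact_mod_cast this
  have h7 : (1 : ℝ) / (4 * ((s : ℝ) + 1) ^ 2) + (s : ℝ) * (1 / (4 * ((s : ℝ) + 1) ^ 2)) =
      1 / (4 * ((s : ℝ) + 1)) := by
    have h2 : ((s : ℝ) + 1) ≠ 0 := by positivity
    field_simp
    ring
  have h8 : (1 : ℝ) / (4 * ((s : ℝ) + 1)) < 1 := by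
    rw [div_lt_one (by positivity)]
    linarith
  linarith

/-- Row N. -/
theorem constS (s q k : ℕ) (hq : 1 ≤ q) : ∃ c : ℕ, 3 ≤ c ∧ ∀ a : ℕ, c ≤ a →
    ∃ (g g' w e A L : ℕ) (θ : ℕ → ℕ),
      a = k * g + (k + 1) * g' ∧ 1 ≤ w ∧ w ≤ g ∧ w ≤ g' ∧
      q * a ≤ q * (2 * k + 1) * w + e ∧ 1 ≤ A ∧ 1 ≤ L ∧
      (∀ r, 2 ≤ r → r ≤ s → A ≤ L * θ r ∧ (r + 1) * r * (L * θ r) ≤ θ (r + 1)) ∧
      (∀ r, 2 * A ≤ θ r) ∧
      ((a : ℝ) ^ 2 * ((q * (2 * k + 1) : ℕ) : ℝ) ^ 2 *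
          (1 - 1 / (2 * ((q * (2 * k + 1) : ℕ) : ℝ) ^ 2)) ^ (A - 2 * e) +
        ∑ r ∈ Finset.Icc 2 s, (a : ℝ) ^ 2 * ((q * (2 * k + 1) : ℕ) : ℝ) ^ 2 *
          (2 ^ (θ r) * (1 - 1 / (2 * ((q * (2 * k + 1) : ℕ) : ℝ) ^ 2)) ^ (L * θ r - 2 * e))
          < 1) ∧
      (θ (s + 1) : ℝ) ≤ c * Real.log a := by
  obtain ⟨Q, hQ⟩ : ∃ Q, Q = q * (2 * k + 1) := ⟨_, rfl⟩
  have hQ1 : 1 ≤ Q := by
    rw [hQ]
    exact Nat.mul_pos hq (by omega)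
  obtain ⟨e, he⟩ : ∃ e, e = q * (2 * k + 1) ^ 2 := ⟨_, rfl⟩
  obtain ⟨L, hL⟩ : ∃ L, L = 8 * Q ^ 2 := ⟨_, rfl⟩
  obtain ⟨D, hD⟩ : ∃ D, D = 2 * ((s + 1).factorial ^ 2 * L ^ (s + 1)) := ⟨_, rfl⟩
  obtain ⟨E, hE⟩ : ∃ E, E = 2 * e + 1 + 4 * Q ^ 2 * (2 * (s + 1) * Q + 1) := ⟨_, rfl⟩
  refine ⟨3 + (2 * k + 1) ^ 2 + D * (2 * E), by omega, ?_⟩
  intro a ha
  have ha3 : 3 ≤ a := by
    have h1 : 0 ≤ D * (2 * E) := Nat.zero_le _
    have h2 : 0 ≤ (2 * k + 1) ^ 2 := Nat.zero_le _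
    omega
  have haK : (2 * k + 1) ^ 2 ≤ a := by
    have : 0 ≤ D * (2 * E) := Nat.zero_le _
    omega
  obtain ⟨g, g', w, h1, h2, h3, h4, h5⟩ := sizesK k a haK
  have haR : (3 : ℝ) ≤ a := by exact_mod_cast ha3
  have ha0 : (0 : ℝ) < a := by linarith
  have hQR : (1 : ℝ) ≤ Q := by exact_mod_cast hQ1
  have hQ0 : (0 : ℝ) < Q := by linarith
  have hsR : (0 : ℝ) ≤ (s : ℝ) := Nat.cast_nonneg _
  have hlog1 : 1 ≤ Real.log a := by
    rw [Real.le_log_iff_exp_le ha0]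
    have := Real.exp_one_lt_d9
    linarith
  have hL1 : 1 ≤ L := by
    rw [hL]
    have : 1 ≤ Q ^ 2 := Nat.one_le_pow _ _ hQ1
    omega
  obtain ⟨A, hA⟩ : ∃ A, A = 2 * e + ⌈4 * (Q : ℝ) ^ 2 *
    Real.log (2 * ((s : ℝ) + 1) * a * Q)⌉₊ + 1 := ⟨_, rfl⟩
  have hA1 : 1 ≤ A := by omega
  have hlogpos : 0 ≤ 4 * (Q : ℝ) ^ 2 * Real.log (2 * ((s : ℝ) + 1) * a * Q) := by
    apply mul_nonneg (by positivity)
    apply Real.log_nonneg
    have h5 : (1 : ℝ) ≤ 2 * ((s : ℝ) + 1) := by linarith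
    have h6 : (1 : ℝ) ≤ 2 * ((s : ℝ) + 1) * a :=
      one_le_mul_of_one_le_of_one_le h5 (by linarith)
    exact one_le_mul_of_one_le_of_one_le h6 hQR
  have hA2 : 2 * (e : ℝ) + 4 * (Q : ℝ) ^ 2 * Real.log (2 * ((s : ℝ) + 1) * a * Q) ≤ A := by
    rw [hA]
    push_cast
    have := Nat.le_ceil (4 * (Q : ℝ) ^ 2 * Real.log (2 * ((s : ℝ) + 1) * a * Q))
    linarith
  have hA3 : (A : ℝ) ≤ 2 * e + 4 * (Q : ℝ) ^ 2 * Real.log (2 * ((s : ℝ) + 1) * a * Q) + 2 := by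
    rw [hA]
    push_cast
    have := Nat.ceil_lt_add_one hlogpos
    linarith
  clear hA
  have hTsum : Real.log (2 * ((s : ℝ) + 1) * a * Q) =
      Real.log (2 * ((s : ℝ) + 1) * Q) + Real.log a := by
    rw [← Real.log_mul (by positivity) (by positivity)]
    congr 1
    ring
  have h7 : Real.log (2 * ((s : ℝ) + 1) * Q) ≤ 2 * ((s : ℝ) + 1) * Q := by
    have := Real.log_le_sub_one_of_pos (show (0 : ℝ) < 2 * ((s : ℝ) + 1) * Q by positivity)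
    linarith
  have h8 : (A : ℝ) ≤ (2 * E : ℕ) * Real.log a := by
    have h9 : ((2 * E : ℕ) : ℝ) =
        2 * (2 * e + 1 + 4 * (Q : ℝ) ^ 2 * (2 * ((s : ℝ) + 1) * Q + 1)) := by
      rw [hE]
      push_cast
      ring
    have he0 : (0 : ℝ) ≤ (e : ℝ) := Nat.cast_nonneg _
    have h10 : 2 * (e : ℝ) ≤ 2 * e * Real.log a := le_mul_of_one_le_right (by positivity) hlog1
    have h11 : Real.log (2 * ((s : ℝ) + 1) * a * Q) ≤
        (2 * ((s : ℝ) + 1) * Q + 1) * Real.log a := by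
      rw [hTsum]
      have h12 : 2 * ((s : ℝ) + 1) * Q ≤ 2 * ((s : ℝ) + 1) * Q * Real.log a :=
        le_mul_of_one_le_right (by positivity) hlog1
      linarith
    have h12 : 4 * (Q : ℝ) ^ 2 * Real.log (2 * ((s : ℝ) + 1) * a * Q) ≤
        4 * (Q : ℝ) ^ 2 * ((2 * ((s : ℝ) + 1) * Q + 1) * Real.log a) :=
      mul_le_mul_of_nonneg_left h11 (by positivity)
    have h13 : 0 ≤ 4 * (Q : ℝ) ^ 2 * ((2 * ((s : ℝ) + 1) * Q + 1) * Real.log a) := by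
      positivity
    rw [h9]
    nlinarith
  have hθA : ∀ r : ℕ, 2 * A ≤ 2 * A * (r.factorial ^ 2 * L ^ r) := by
    intro r
    apply Nat.le_mul_of_pos_right
    exact Nat.mul_pos (pow_pos (Nat.factorial_pos r) 2) (pow_pos (by omega) r)
  rw [← hQ]
  refine ⟨g, g', w, e, A, L, fun r => 2 * A * (r.factorial ^ 2 * L ^ r), h1, h2, h3, h4, ?_,
    hA1, hL1, ?_, hθA, ?_, ?_⟩
  · rw [he, hQ]
    exact h5 q
  · intro r _ _
    constructor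
    · calc A ≤ 2 * A * (r.factorial ^ 2 * L ^ r) := le_trans (by omega) (hθA r)
        _ ≤ L * (2 * A * (r.factorial ^ 2 * L ^ r)) := Nat.le_mul_of_pos_left _ (by omega)
    · have h6 : 2 * A * ((r + 1).factorial ^ 2 * L ^ (r + 1)) =
          (r + 1) * (r + 1) * (L * (2 * A * (r.factorial ^ 2 * L ^ r))) := by
        rw [Nat.factorial_succ, pow_succ]
        ring
      show (r + 1) * r * (L * (2 * A * (r.factorial ^ 2 * L ^ r))) ≤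
        2 * A * ((r + 1).factorial ^ 2 * L ^ (r + 1))
      rw [h6]
      exact Nat.mul_le_mul_right _ (Nat.mul_le_mul_left _ (by omega))
  · exact numS (by omega) hQ1 hA2 hL hθA
  · have h6 : ((2 * A * ((s + 1).factorial ^ 2 * L ^ (s + 1)) : ℕ) : ℝ) = D * A := by
      rw [hD]
      push_cast
      ring
    rw [h6]
    have h9 : (0 : ℝ) ≤ (D : ℝ) := Nat.cast_nonneg _
    calc (D : ℝ) * A ≤ D * ((2 * E : ℕ) * Real.log a) := mul_le_mul_of_nonneg_left h8 h9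
      _ = ((D * (2 * E) : ℕ) : ℝ) * Real.log a := by
          push_cast
          ring
      _ ≤ _ := by
          apply mul_le_mul_of_nonneg_right _ (by linarith)
          exact_mod_cast Nat.le_add_left _ _

end Vale.Agent.P181.TS
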